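import Vale.Agent.P121.Final

namespace Vale.Agent.Results.P121.NoMonge

open MeasureTheory
open scoped ENNReal NNReal

/-- The three-particle Coulomb cost `1/|x₁-x₂| + 1/|x₁-x₃| + 1/|x₂-x₃|`, with values in `[0, ∞]`
(equal to `∞` when two points coincide, since `0⁻¹ = ∞` in `ℝ≥0∞`). -/
noncomputable def coulomb {d : ℕ} (x₁ x₂ x₃ : EuclideanSpace ℝ (Fin d)) : ℝ≥0∞ :=
  (edist x₁ x₂)⁻¹ + (edist x₁ x₃)⁻¹ + (edist x₂ x₃)⁻¹

/-- `π ∈ Π(μ, μ, μ)`: a Borel probability measure on the triple product with all three marginals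
equal to `μ`. -/
def IsCoupling {d : ℕ} (μ : Measure (EuclideanSpace ℝ (Fin d)))
    (π : Measure (EuclideanSpace ℝ (Fin d) × EuclideanSpace ℝ (Fin d) × EuclideanSpace ℝ (Fin d))) :
    Prop :=
  IsProbabilityMeasure π ∧ π.map (fun q => q.1) = μ ∧ π.map (fun q => q.2.1) = μ ∧
    π.map (fun q => q.2.2) = μ

/-- The Kantorovich value `𝓔(μ)`. -/
noncomputable def kantorovich {d : ℕ} (μ : Measure (EuclideanSpace ℝ (Fin d))) : ℝ≥0∞ :=
  ⨅ (π : Measure (EuclideanSpace ℝ (Fin d) × EuclideanSpace ℝ (Fin d) × EuclideanSpace ℝ (Fin d)))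
    (_ : IsCoupling μ π), ∫⁻ q, coulomb q.1 q.2.1 q.2.2 ∂π

theorem result (d : ℕ) (hd : 2 ≤ d) :
    ∃ μ : Measure (EuclideanSpace ℝ (Fin d)),
      IsProbabilityMeasure μ ∧ μ ≪ volume ∧
      (∃ C : ℝ≥0, μ ≤ C • (volume : Measure (EuclideanSpace ℝ (Fin d)))) ∧
      μ (Metric.closedBall 0 2)ᶜ = 0 ∧
      kantorovich μ < ∞ ∧
      ¬ ∃ T₂ T₃ : EuclideanSpace ℝ (Fin d) → EuclideanSpace ℝ (Fin d),
        Measurable T₂ ∧ Measurable T₃ ∧ μ.map T₂ = μ ∧ μ.map T₃ = μ ∧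
        ∫⁻ x, coulomb x (T₂ x) (T₃ x) ∂μ = kantorovich μ := by
  obtain ⟨μ, V, hμ, ⟨C, hC⟩, hsupp, hV, ⟨π, p0, p1, p2, p3, hπ⟩, hM⟩ :=
    Vale.Agent.P121.exists_counterexample (volume : Measure (EuclideanSpace ℝ (Fin d)))
      (e₀ := EuclideanSpace.single ⟨0, by omega⟩ 1) (e₁ := EuclideanSpace.single ⟨1, by omega⟩ 1)
      (by simp) (by simp) (by simp [EuclideanSpace.inner_single_left])
  have hk : kantorovich μ ≤ V := iInf₂_le_of_le π ⟨p0, p1, p2, p3⟩ hπ.le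
  refine ⟨μ, hμ, ?_, ⟨C, hC⟩, hsupp, hk.trans_lt hV.lt_top, ?_⟩
  · exact (Measure.absolutelyContinuous_of_le hC).trans Measure.smul_absolutelyContinuous
  · rintro ⟨T₂, T₃, h2, h3, e2, e3, h⟩
    exact absurd (hM T₂ T₃ h2 h3 e2 e3) (not_lt.2 (h.le.trans hk))

end Vale.Agent.Results.P121.NoMonge
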